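import Vale.Agent.P329.H962.Rows

/-! Row F3 of the interface `H962.Rows` (independent copy). -/

namespace Vale.Agent.P329.H962.H19

open Filter Topology

theorem cluster {B : Type} [Finite B] (z : ℕ → ℕ → B) :
    ∃ x : ℕ → B, ∀ J n, ∃ k ≥ n, ∀ i < J, z k i = x i := by
  let _ : TopologicalSpace B := ⊥
  have : DiscreteTopology B := ⟨rfl⟩
  obtain ⟨x, φ, hφ, hx⟩ := CompactSpace.tendsto_subseq z
  refine ⟨x, fun J n => ?_⟩
  have h1 : ∀ i, ∀ᶠ k in atTop, z (φ k) i = x i := by
    intro i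
    have h2 := (continuous_apply i).continuousAt.tendsto.comp hx
    have h3 : ∀ᶠ b in 𝓝 (x i), b = x i := by
      rw [nhds_discrete]
      exact eventually_pure.mpr rfl
    exact h2.eventually h3
  have h3 : ∀ᶠ k in atTop, ∀ i ∈ Finset.range J, z (φ k) i = x i :=
    (eventually_all_finset _).mpr fun i _ => h1 i
  obtain ⟨k, hk1, hk2⟩ := (h3.and (eventually_ge_atTop n)).exists
  exact ⟨φ k, hk2.trans (hφ.id_le k), fun i hi => hk1 i (Finset.mem_range.mpr hi)⟩

theorem rowF3 : RowF3 := by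
  intro B _ M M' hM hM' hne
  by_contra hcon
  push Not at hcon
  choose m hm m' hm' he using hcon
  obtain ⟨x, hx⟩ := cluster m
  have hxM : x ∈ M := hM.cl x fun J => by
    obtain ⟨k, -, hk⟩ := hx J 0
    exact ⟨m k, hm k, hk⟩
  have hxM' : x ∈ M' := hM'.cl x fun J => by
    obtain ⟨k, hkJ, hk⟩ := hx J J
    exact ⟨m' k, hm' k, fun i hi => ((he k i (by omega)).symm.trans (hk i hi))⟩
  have hsh : ∀ {N : Set (ℕ → B)}, Mn N → ∀ {y}, y ∈ N → ∀ k, (fun i => y (k + i)) ∈ N := by
    intro N hN y hy k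
    induction k with
    | zero => simpa using hy
    | succ k ih =>
      have := hN.inv _ ih
      have e : sh (fun i => y (k + i)) = fun i => y (k + 1 + i) := by
        funext i
        simp only [sh]
        congr 1
        omega
      rwa [e] at this
  apply hne
  apply Set.Subset.antisymm
  · intro y hy
    refine hM'.cl y fun J => ?_
    obtain ⟨k, hk⟩ := hM.mn x hxM y hy J
    exact ⟨_, hsh hM' hxM' k, hk⟩
  · intro y hy
    refine hM.cl y fun J => ?_
    obtain ⟨k, hk⟩ := hM'.mn x hxM' y hy J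
    exact ⟨_, hsh hM hxM k, hk⟩

end Vale.Agent.P329.H962.H19
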