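import Vale.Agent.P329.H962.Rows

/-! Rows H1, H2 of the interface `H962.Rows` (independent copy). -/

namespace Vale.Agent.P329.H962.H19

open H259 (pw pw_zero pw_succ pw_one pw_add pw_succ' pw_mul pw_length)
open Filter

variable {α A : Type} {p : ℕ}

theorem TL_zero' (k : List α → ZMod p) : TL k (fun _ => 0) = fun _ => 0 := by
  funext X
  induction X with
  | nil => rfl
  | cons a X ih => simp only [TL, ih]; simp

theorem TL_zero_left (G : List α → ZMod p) : TL (fun _ => 0) G = fun _ => 0 := by
  funext X
  induction X with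
  | nil => rfl
  | cons a X ih => simp only [TL, ih]; simp

theorem TL_add (k G G' : List α → ZMod p) :
    TL k (fun X => G X + G' X) = fun X => TL k G X + TL k G' X := by
  funext X
  induction X with
  | nil => simp [TL]
  | cons a X ih => simp only [TL]; rw [ih]; ring

theorem TL_smul (k G : List α → ZMod p) (c : ZMod p) :
    TL k (fun X => c * G X) = fun X => c * TL k G X := by
  funext X
  induction X with
  | nil => simp [TL]
  | cons a X ih => simp only [TL]; rw [ih]; ring

theorem TL_split [NeZero p] (k h G : List α → ZMod p) :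
    TL k G = fun X => ∑ s : ZMod p, TL (fun X => if N h X = s then k X else 0) G X := by
  funext X
  induction X with
  | nil => simp [TL]
  | cons a X ih =>
    simp only [TL]
    rw [ih, Finset.sum_add_distrib, ← Finset.sum_mul, Finset.sum_ite_eq]
    simp

theorem Cap_zero : Cap (fun _ : List α => (0 : ZMod p)) := by
  intro a
  by_cases h : (0 : ZMod p) = a
  · simpa [h] using (SH.univ : SH 1 (Set.univ : Set (List α)))
  · simpa [h] using (SH.empty : SH 1 (∅ : Set (List α)))

theorem Cap_add [NeZero p] {G G' : List α → ZMod p} (h : Cap G) (h' : Cap G') :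
    Cap fun X => G X + G' X := by
  intro a
  have e : {u : List α | G u.reverse + G' u.reverse = a} =
      ⋃ b : ZMod p, {u | G u.reverse = b} ∩ {u | G' u.reverse = a - b} := by
    ext u
    simp only [Set.mem_iUnion, Set.mem_inter_iff, Set.mem_ofPred_eq]
    constructor
    · intro hu
      exact ⟨_, rfl, by rw [← hu]; ring⟩
    · rintro ⟨b, h1, h2⟩
      rw [h1, h2]; ring
  change SH 1 {u : List α | G u.reverse + G' u.reverse = a}
  rw [e]
  exact SH.iUnion fun b => SH.inter (h b) (h' _)

theorem Cap_smul [NeZero p] {G : List α → ZMod p} (h : Cap G) (c : ZMod p) :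
    Cap fun X => c * G X := by
  intro a
  have e : {u : List α | c * G u.reverse = a} =
      ⋃ b : ZMod p, ⋃ _ : c * b = a, {u | G u.reverse = b} := by
    ext u
    simp only [Set.mem_iUnion, Set.mem_ofPred_eq]
    constructor
    · intro hu
      exact ⟨_, hu, rfl⟩
    · rintro ⟨b, h1, h2⟩
      rw [h2]; exact h1
  change SH 1 {u : List α | c * G u.reverse = a}
  rw [e]
  exact SH.iUnion fun b => SH.iUnion_prop fun _ => h b

theorem rowH1 : RowH1 := by
  intro α _ p _ w Fs
  induction Fs with
  | nil => exact ⟨Cap_zero, fun G G' => Cap_add, fun a G h => Cap_smul h a⟩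
  | cons F Fs ih =>
    obtain ⟨i0, i1, i2⟩ := ih
    refine ⟨⟨Set.univ, univ_mem, fun k _ _ => by rw [TL_zero']; exact i0⟩, ?_, ?_⟩
    · rintro G G' ⟨U, hU, h⟩ ⟨U', hU', h'⟩
      refine ⟨U ∩ U', inter_mem hU hU', fun k hk hs => ?_⟩
      rw [TL_add]
      exact i1 _ _ (h k hk fun X hX => (hs X hX).1) (h' k hk fun X hX => (hs X hX).2)
    · rintro a G ⟨U, hU, h⟩
      refine ⟨U, hU, fun k hk hs => ?_⟩
      rw [TL_smul]
      exact i2 a _ (h k hk hs)

theorem RR_sum (hH1 : RowH1) [Finite α] [Fact p.Prime] {w : List α → ZMod p}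
    {Fs : List (Filter (List α))} {ι : Type} (T : Finset ι) (G : ι → List α → ZMod p)
    (h : ∀ i ∈ T, RR w Fs (G i)) : RR w Fs fun X => ∑ i ∈ T, G i X := by
  classical
  obtain ⟨h0, h1, -⟩ := hH1 α p w Fs
  induction T using Finset.induction_on with
  | empty => simpa using h0
  | insert i T hi ih =>
    have e : (fun X => ∑ j ∈ insert i T, G j X) = fun X => G i X + ∑ j ∈ T, G j X := by
      funext X
      rw [Finset.sum_insert hi]
    rw [e]
    exact h1 _ _ (h i (Finset.mem_insert_self _ _))
      (ih fun j hj => h j (Finset.mem_insert_of_mem hj))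

theorem rowH2 (hB2 : RowB2) (hB3 : RowB3) (hC : RowC) (hH1 : RowH1) : RowH2 := by
  intro α _ p _ w h hw hh ρ Fs
  induction Fs with
  | nil =>
    intro G hG
    have := hG [] rfl (by simp)
    simpa [RR] using this
  | cons F Fs ih =>
    intro G hG
    have key : ∀ s : ZMod p, ∃ U ∈ strd F h s, ∀ k : List α → ZMod p, Lc (rc h ρ) k →
        (∀ X, k X ≠ 0 → X ∈ U) → ∀ ss : List (ZMod p), ss.length = Fs.length →
        (∀ F' ∈ List.zipWith (fun F s => strd F h s) Fs ss, F'.NeBot) →
        RR (rc h ρ) (List.zipWith (fun F s => strd F h s) Fs ss) (TL k G) := by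
      intro s
      by_cases hs : (strd F h s).NeBot
      · have h1 : ∀ ss : List (ZMod p), ∃ U ∈ strd F h s, ss.length = Fs.length →
            (∀ F' ∈ List.zipWith (fun F s => strd F h s) Fs ss, F'.NeBot) →
            ∀ k : List α → ZMod p, Lc (rc h ρ) k → (∀ X, k X ≠ 0 → X ∈ U) →
            RR (rc h ρ) (List.zipWith (fun F s => strd F h s) Fs ss) (TL k G) := by
          intro ss
          by_cases hc : ss.length = Fs.length ∧
              ∀ F' ∈ List.zipWith (fun F s => strd F h s) Fs ss, F'.NeBot
          · have h2 := hG (s :: ss) (by simp [hc.1]) (by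
              intro F' hF'
              rw [List.zipWith_cons_cons, List.mem_cons] at hF'
              rcases hF' with rfl | hF'
              · exact hs
              · exact hc.2 _ hF')
            obtain ⟨U, hU, h3⟩ := h2
            exact ⟨U, hU, fun _ _ => h3⟩
          · exact ⟨Set.univ, univ_mem, fun a b => absurd ⟨a, b⟩ hc⟩
        choose U hU hk using h1
        refine ⟨⋂ ss ∈ {l : List (ZMod p) | l.length = Fs.length}, U ss, ?_, ?_⟩
        · exact (biInter_mem (List.finite_length_eq _ _)).mpr fun ss _ => hU ss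
        · intro k hkl hks ss hss hne
          refine hk ss hss hne k hkl fun X hX => ?_
          exact Set.mem_iInter₂.mp (hks X hX) ss hss
      · refine ⟨∅, ?_, ?_⟩
        · rw [not_neBot.mp hs]; exact mem_bot
        · intro k _ hks ss _ _
          have e : k = fun _ => 0 := by
            funext X
            by_contra hX
            exact hks X hX
          rw [e, TL_zero_left]
          exact (hH1 α p (rc h ρ) _).1
    choose U hU hk using key
    refine ⟨{X | X ∈ U (N h X)}, ?_, ?_⟩
    · have h1 : (⋂ s : ZMod p, {X | N h X = s → X ∈ U s}) ∈ F :=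
        iInter_mem.mpr fun s => mem_inf_principal.mp (hU s)
      refine mem_of_superset h1 fun X hX => ?_
      exact Set.mem_iInter.mp hX (N h X) rfl
    · intro k hkl hks
      refine ih (TL k G) fun ss hss hne => ?_
      rw [TL_split k h G]
      refine RR_sum hH1 Finset.univ _ fun s _ => ?_
      refine hk s _ ?_ ?_ ss hss hne
      · have h2 : Lc (rc h ρ) fun X => (N h X, k X) :=
          (hC α p (rc h ρ)).2.1 _ _ _ _ (hB3 α p w h hw hh ρ) (hB2 α _ p w h hw hh ρ k hkl)
        exact (hC α p (rc h ρ)).1 _ _ (fun q => if q.1 = s then q.2 else 0) _ h2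
      · intro X hX
        by_cases hs : N h X = s
        · have h3 : k X ≠ 0 := by simpa [hs] using hX
          have := hks X h3
          rw [Set.mem_ofPred_eq, hs] at this
          exact this
        · simp [hs] at hX

end Vale.Agent.P329.H962.H19
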