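import Vale.Agent.P329.H962.Rows

/-! Row K of the interface `H962.Rows` (independent copy): from the core to all letter chains. -/

namespace Vale.Agent.P329.H962.H19

open H259 (pw pw_zero pw_succ pw_one pw_add pw_succ' pw_mul pw_length)
open Filter Topology

variable {α A B : Type} {p : ℕ}

/-- depends on finitely many of the newest letters -/
def Loc (k : List α → A) : Prop := ∃ c, ∀ X Y : List α, X.take c = Y.take c → k X = k Y

theorem take_of_take {c c' : ℕ} (h : c ≤ c') {X Y : List α} (hX : X.take c' = Y.take c') :
    X.take c = Y.take c := by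
  have := congrArg (List.take c) hX
  rwa [List.take_take, List.take_take, min_eq_left h] at this

theorem len_of_take {c : ℕ} {X Y : List α} (hX : X.take c = Y.take c) (h : X.length < c) :
    X = Y := by
  have h1 : X.take c = X := List.take_of_length_le h.le
  have h2 := congrArg List.length hX
  rw [List.length_take, List.length_take] at h2
  have h3 : Y.take c = Y := List.take_of_length_le (by omega)
  rw [← h1, hX, h3]

theorem loc_ite {k : List α → ZMod p} (hk : Loc k) (P : List α → Prop) [DecidablePred P] (J : ℕ)
    (hP : ∀ X Y : List α, X.take J = Y.take J → (P X ↔ P Y)) :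
    Loc fun X => if P X then k X else 0 := by
  obtain ⟨c, hc⟩ := hk
  refine ⟨max c J, fun X Y h => ?_⟩
  have h1 := hc X Y (take_of_take (le_max_left _ _) h)
  have h2 := hP X Y (take_of_take (le_max_right _ _) h)
  simp only
  rw [h1]
  by_cases h3 : P X
  · rw [if_pos h3, if_pos (h2.mp h3)]
  · rw [if_neg h3, if_neg fun h => h3 (h2.mpr h)]

theorem loc_mul {k : List α → ZMod p} (hk : Loc k) (a : ZMod p) :
    Loc fun X => k X * a := by
  obtain ⟨c, hc⟩ := hk
  exact ⟨c, fun X Y h => by simp only [hc X Y h]⟩

theorem loc_tr {k : List α → A} (hk : Loc k) (U : List α) : Loc fun Y => k (Y ++ U) := by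
  obtain ⟨c, hc⟩ := hk
  refine ⟨c, fun X Y h => hc _ _ ?_⟩
  have h2 := congrArg List.length h
  rw [List.length_take, List.length_take] at h2
  rw [List.take_append, List.take_append, h]
  congr 2
  omega

theorem w0_ne [Fact p.Prime] {X : List α} (h : X ≠ []) : (w0 X : ZMod p) ≠ 0 := by
  simp [w0, h]

theorem nc_w0 [Fact p.Prime] (c : List α) : ∀ S : List α,
    nc (w0 : List α → ZMod p) S c = S.length
  | [] => rfl
  | a :: S => by
    simp only [nc]
    rw [nc_w0 c S, if_neg (w0_ne (by simp)), List.length_cons]

theorem lc_w0 [Finite α] [Fact p.Prime] {k : List α → A} (hk : Loc k) :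
    Lc (w0 : List α → ZMod p) k := by
  obtain ⟨c, hc⟩ := hk
  refine ⟨?_, ?_, c, ?_⟩
  · refine ((List.finite_length_le α c).image fun l : List α =>
      fun Y : List α => k (Y ++ l)).subset ?_
    rintro _ ⟨X, rfl⟩
    refine ⟨X.take c, by simp, ?_⟩
    funext Y
    refine hc _ _ ?_
    rw [List.take_append, List.take_append, List.take_take, min_eq_left (Nat.sub_le _ _)]
  · intro v
    refine ⟨1, fun n hn X Y hU => ?_⟩
    by_cases hv : v = []
    · subst hv
      have h0 : ∀ n, pw ([] : List α) n = [] := by
        intro n
        induction n with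
        | zero => simp
        | succ n ih => rw [pw_succ, ih]; rfl
      rw [h0, h0]
    · exfalso
      have h1 : pw v n ≠ [] := by
        obtain ⟨n, rfl⟩ : ∃ n', n = n' + 1 := ⟨n - 1, by omega⟩
        rw [pw_succ]
        simp [hv]
      exact w0_ne (p := p) (by simp [h1]) (hU (pw v n) List.suffix_rfl h1)
  · intro c1 c2 S _ _ hS
    rw [nc_w0] at hS
    refine hc _ _ ?_
    rw [List.take_append, List.take_append]
    have : c - S.length = 0 := by omega
    rw [this]; simp

theorem loc_of_lc [Fact p.Prime] {k : List α → A} (hk : Lc (w0 : List α → ZMod p) k) : Loc k := by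
  obtain ⟨-, -, n, hn⟩ := hk
  refine ⟨n + 1, fun X Y h => ?_⟩
  by_cases hX : X.length < n + 1
  · rw [len_of_take h hX]
  · have h2 := congrArg List.length h
    rw [List.length_take, List.length_take] at h2
    have h3 : X.take n = Y.take n := take_of_take (by omega) h
    have e1 : X = X.take n ++ X.drop n := (List.take_append_drop n X).symm
    have e2 : Y = X.take n ++ Y.drop n := by rw [h3]; exact (List.take_append_drop n Y).symm
    rw [e1]
    conv_rhs => rw [e2]
    refine hn _ _ _ (w0_ne ?_) (w0_ne ?_) ?_
    · intro h4
      have := congrArg List.length h4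
      rw [List.length_drop, List.length_nil] at this
      omega
    · intro h4
      have := congrArg List.length h4
      rw [List.length_drop, List.length_nil] at this
      omega
    · rw [nc_w0, List.length_take]
      omega

theorem TL_addl (k k' G : List α → ZMod p) :
    TL (fun X => k X + k' X) G = fun X => TL k G X + TL k' G X := by
  funext X
  induction X with
  | nil => simp [TL]
  | cons a X ih => simp only [TL]; rw [ih]; ring

theorem TL_addr (k G G' : List α → ZMod p) :
    TL k (fun X => G X + G' X) = fun X => TL k G X + TL k G' X := by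
  funext X
  induction X with
  | nil => simp [TL]
  | cons a X ih => simp only [TL]; rw [ih]; ring

theorem TL_const (k : List α → ZMod p) (a : ZMod p) :
    TL k (fun _ => a) = N fun X => k X * a := by
  funext X
  induction X with
  | nil => rfl
  | cons b X ih => simp only [TL, N]; rw [ih]

theorem TL_zerol (G : List α → ZMod p) : TL (fun _ => 0) G = fun _ => 0 := by
  funext X
  induction X with
  | nil => rfl
  | cons a X ih => simp only [TL, ih]; simp

theorem TL_tr (k G : List α → ZMod p) (U : List α) (Y : List α) :
    TL k G (Y ++ U) = TL (fun Y => k (Y ++ U)) (fun Y => G (Y ++ U)) Y + TL k G U := by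
  induction Y with
  | nil => simp [TL]
  | cons a Y ih =>
    rw [List.cons_append]
    simp only [TL]
    rw [ih, List.cons_append]; ring

/-- chains -/
def chn (k0 : List α → ZMod p) (ks : List (List α → ZMod p)) : List α → ZMod p :=
  ks.foldl (fun F k => TL k F) (N k0)

theorem chn_append (k0 k : List α → ZMod p) (ks : List (List α → ZMod p)) :
    chn k0 (ks ++ [k]) = TL k (chn k0 ks) := by
  simp [chn]

/-- combinations of chains with fewer than `r` further marks -/
inductive Ch : ℕ → (List α → ZMod p) → Prop
  | const (r : ℕ) (a : ZMod p) : Ch r fun _ => a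
  | chain (r : ℕ) (k0 : List α → ZMod p) (ks : List (List α → ZMod p)) : Loc k0 →
      (∀ k ∈ ks, Loc k) → ks.length < r → Ch r (chn k0 ks)
  | add (r : ℕ) (F G : List α → ZMod p) : Ch r F → Ch r G → Ch r fun X => F X + G X

theorem Ch.TL {r : ℕ} {F k : List α → ZMod p} (h : Ch r F) (hk : Loc k) : Ch (r + 1) (TL k F) := by
  induction h with
  | const a =>
    rw [TL_const]
    exact Ch.chain (r + 1) _ [] (loc_mul hk a) (by simp) (by simp)
  | chain k0 ks h0 hs hl =>
    rw [← chn_append]
    refine Ch.chain (r + 1) _ _ h0 ?_ ?_
    · intro k' hk'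
      rcases List.mem_append.mp hk' with h | h
      · exact hs _ h
      · rw [List.mem_singleton.mp h]; exact hk
    · rw [List.length_append, List.length_singleton]; omega
  | add F G _ _ ih1 ih2 =>
    rw [TL_addr]
    exact Ch.add _ _ _ ih1 ih2

theorem ch_fold {U : List α} : ∀ (ks : List (List α → ZMod p)) (r : ℕ) (H : List α → ZMod p),
    (∀ k ∈ ks, Loc k) → (Ch r fun Y => H (Y ++ U)) →
    Ch (r + ks.length) fun Y => (ks.foldl (fun F k => H962.TL k F) H) (Y ++ U)
  | [], r, H, _, h => h
  | k :: ks, r, H, hk, h => by
    have h1 : Ch (r + 1) fun Y => H962.TL k H (Y ++ U) := by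
      have e : (fun Y => H962.TL k H (Y ++ U)) = fun Y =>
          H962.TL (fun Y => k (Y ++ U)) (fun Y => H (Y ++ U)) Y + H962.TL k H U :=
        funext fun Y => TL_tr k H U Y
      rw [e]
      exact Ch.add _ _ _ (h.TL (loc_tr (hk k (by simp)) U)) (Ch.const _ _)
    have h2 := ch_fold ks (r + 1) (H962.TL k H) (fun k' hk' => hk k' (by simp [hk'])) h1
    rw [List.length_cons, show r + (ks.length + 1) = r + 1 + ks.length by omega]
    exact h2

theorem cap_const (a : ZMod p) : Cap (fun _ : List α => a) := by
  intro b
  by_cases h : a = b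
  · simpa [h] using (SH.univ : SH 1 (Set.univ : Set (List α)))
  · simpa [h] using (SH.empty : SH 1 (∅ : Set (List α)))

theorem cap_add [NeZero p] {G G' : List α → ZMod p} (h : Cap G) (h' : Cap G') :
    Cap fun X => G X + G' X := by
  intro a
  have e : {u : List α | G u.reverse + G' u.reverse = a} =
      ⋃ b : ZMod p, {u | G u.reverse = b} ∩ {u | G' u.reverse = a - b} := by
    ext u
    simp only [Set.mem_iUnion, Set.mem_inter_iff, Set.mem_ofPred_eq]
    constructor
    · intro hu
      exact ⟨_, rfl, by rw [← hu]; ring⟩
    · rintro ⟨b, h1, h2⟩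
      rw [h1, h2]; ring
  change SH 1 {u : List α | G u.reverse + G' u.reverse = a}
  rw [e]
  exact SH.iUnion fun b => SH.inter (h b) (h' _)

theorem Ch.cap [Fact p.Prime] {r : ℕ} {F : List α → ZMod p} (h : Ch r F)
    (hP : ∀ (k0 : List α → ZMod p) (ks : List (List α → ZMod p)), Loc k0 → (∀ k ∈ ks, Loc k) →
      ks.length < r → Cap (chn k0 ks)) : Cap F := by
  induction h with
  | const a => exact cap_const a
  | chain k0 ks h0 hs hl => exact hP k0 ks h0 hs hl
  | add F G _ _ ih1 ih2 => exact cap_add ih1 ih2

theorem cap_of_tr [Finite α] (c : ℕ) (G : List α → ZMod p)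
    (h : ∀ U : List α, U.length = c → Cap fun Y => G (Y ++ U)) : Cap G := by
  intro a
  have : Finite {U : List α // U.length = c} := (List.finite_length_eq α c).to_subtype
  have e : {u : List α | G u.reverse = a} = {u : List α | u.length < c ∧ G u.reverse = a} ∪
      ⋃ U : {U : List α // U.length = c}, P329.cat {U.1.reverse}
        {v : List α | G (v.reverse ++ U.1) = a} := by
    ext u
    simp only [Set.mem_union, Set.mem_iUnion, Set.mem_ofPred_eq]
    constructor
    · intro hu
      by_cases hc : u.length < c
      · exact Or.inl ⟨hc, hu⟩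
      · refine Or.inr ⟨⟨(u.take c).reverse, by simp; omega⟩, u.take c, by simp, u.drop c, ?_, ?_⟩
        · change G ((u.drop c).reverse ++ (u.take c).reverse) = a
          rw [← List.reverse_append, List.take_append_drop]; exact hu
        · exact List.take_append_drop c u
    · rintro (⟨-, hu⟩ | ⟨U, x, hx, v, hv, rfl⟩)
      · exact hu
      · rw [Set.mem_singleton_iff] at hx
        subst hx
        rw [List.reverse_append, List.reverse_reverse]
        exact hv
  change SH 1 {u : List α | G u.reverse = a}
  rw [e]
  refine SH.union (SH.of_zero (Slow.SH.finite0 ((List.finite_length_le α c).subset ?_)))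
    (SH.iUnion fun U => SH.cat (SH.of_zero (Slow.SH.word _)) (h U.1 U.2 a))
  rintro u ⟨hu, -⟩
  exact hu.le

theorem rr_of_all {w : List α → ZMod p} : ∀ (Fs : List (Filter (List α))) (G : List α → ZMod p),
    (∀ ks : List (List α → ZMod p), ks.length = Fs.length → (∀ k ∈ ks, Lc w k) →
      Cap (ks.foldl (fun F k => TL k F) G)) → RR w Fs G
  | [], G, h => h [] rfl (by simp)
  | F :: Fs, G, h => by
    refine ⟨Set.univ, univ_mem, fun k hk _ => rr_of_all Fs _ fun ks hl hs => ?_⟩
    refine h (k :: ks) (by simp [hl]) fun k' hk' => ?_
    rcases List.mem_cons.mp hk' with rfl | h'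
    · exact hk
    · exact hs _ h'

/-- the filter of the histories near `x` -/
def Fx (x : ℕ → α) : Filter (List α) :=
  ⨅ J : ℕ, 𝓟 {X | Near List.head? (fun i => some (x i)) J X}

theorem Fx_basis (x : ℕ → α) : (Fx x).HasBasis (fun _ : ℕ => True)
    fun J => {X | Near List.head? (fun i => some (x i)) J X} := by
  refine hasBasis_iInf_principal ?_
  refine Antitone.directed_ge fun J J' h X hX => ?_
  exact ⟨h.trans hX.1, fun i hi => hX.2 i (by omega)⟩

theorem Fx_near (x : ℕ → α) (J : ℕ) :
    ∀ᶠ X in Fx x, Near List.head? (fun i => some (x i)) J X :=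
  (Fx_basis x).mem_of_mem trivial

instance Fx_neBot (x : ℕ → α) : (Fx x).NeBot := by
  rw [(Fx_basis x).neBot_iff]
  intro J _
  refine ⟨(List.range J).map x, by simp, fun i hi => ?_⟩
  rw [List.head?_drop]
  simp [hi]

theorem near_take {x : ℕ → α} {J : ℕ} {X Y : List α} (h : X.take J = Y.take J)
    (hX : Near List.head? (fun i => some (x i)) J X) :
    Near List.head? (fun i => some (x i)) J Y := by
  have h2 := congrArg List.length h
  rw [List.length_take, List.length_take] at h2
  have h3 := hX.1
  refine ⟨by omega, fun i hi => ?_⟩
  have h4 := hX.2 i hi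
  rw [List.head?_drop] at h4 ⊢
  rw [← h4, ← List.getElem?_take_of_lt hi, ← h, List.getElem?_take_of_lt hi]

theorem cover [Finite α] (J : (ℕ → α) → ℕ) : ∃ (l : List (ℕ → α)) (c : ℕ), ∀ X : List α,
    c ≤ X.length → ∃ x ∈ l, Near List.head? (fun i => some (x i)) (J x) X := by
  let _ : TopologicalSpace α := ⊥
  have : DiscreteTopology α := ⟨rfl⟩
  obtain ⟨t, -, ht⟩ := (isCompact_univ (X := ℕ → α)).elim_nhds_subcover
    (fun x => {y | ∀ i < J x, y i = x i}) (fun x _ => by
      have : {y : ℕ → α | ∀ i < J x, y i = x i} = PiNat.cylinder x (J x) := by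
        ext y; simp [PiNat.cylinder]
      rw [this]
      exact (PiNat.isOpen_cylinder _ x (J x)).mem_nhds fun _ _ => rfl)
  refine ⟨t.toList, t.sup J + 1, fun X hX => ?_⟩
  cases X with
  | nil => simp at hX
  | cons a X =>
    obtain ⟨x, hx⟩ := Set.mem_iUnion.mp (ht (Set.mem_univ fun i => ((a :: X)[i]?).getD a))
    obtain ⟨hxt, hx2⟩ := Set.mem_iUnion.mp hx
    have hJ : J x ≤ t.sup J := Finset.le_sup hxt
    refine ⟨x, Finset.mem_toList.mpr hxt, by omega, fun i hi => ?_⟩
    have h3 : ((a :: X)[i]?).getD a = x i := hx2 i hi
    rw [List.head?_drop]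
    change (a :: X)[i]? = some (x i)
    rw [← h3, List.getElem?_eq_getElem (by omega)]
    rfl

theorem sys0 [Finite α] [Fact p.Prime] : Sys (w0 : List α → ZMod p) (List.head? : List α → Option α)
    (fun o => if o = none then 0 else 1) id := by
  refine ⟨fun X => ?_, fun X => rfl, lc_w0 ⟨1, fun X Y h => ?_⟩⟩
  · cases X <;> simp [w0]
  · cases X <;> cases Y <;> simp_all

theorem exists_zone (hF1 : RowF1) (hF6 : RowF6) [Finite α] [Fact p.Prime] (x : ℕ → α) :
    ∃ M, Zn (w0 : List α → ZMod p) (List.head? : List α → Option α) (Fx x) M := by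
  obtain ⟨M, hM, h1, -⟩ := hF1 Unit (Option α) (fun _ => ()) (fun i => some (x i)) Set.univ
    ⟨⟨fun _ => (), trivial⟩, fun _ _ => trivial, fun _ _ => trivial,
      fun _ _ _ _ _ => ⟨0, fun _ _ => rfl⟩⟩ fun m _ J => ⟨0, fun _ _ => rfl⟩
  refine ⟨M, inferInstance, hM, ⟨fun i => some (x i), Fx_near x, h1⟩, fun ρs => ?_⟩
  obtain ⟨J, hJ⟩ := (hF6 α p).2 ρs
  exact ⟨J, fun m _ X hX => hJ X hX.1⟩

open Classical in
theorem main (hJ : RowJ) (hF1 : RowF1) (hF6 : RowF6) (hH1 : RowH1) [Finite α] [Fact p.Prime] :
    ∀ (n : ℕ) (k0 : List α → ZMod p) (ks : List (List α → ZMod p)), Loc k0 → (∀ k ∈ ks, Loc k) →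
      ks.length = n → Cap (chn k0 ks) := by
  intro n
  induction n using Nat.strong_induction_on with
  | _ n IH =>
    have key : ∀ (ks : List (List α → ZMod p)) (k0 : List α → ZMod p), Loc k0 →
        (∀ k ∈ ks, Loc k) → ∀ xs : List (ℕ → α), ks.length + xs.length = n →
        RR (w0 : List α → ZMod p) (xs.map Fx) (chn k0 ks) := by
      intro ks
      induction ks using List.reverseRecOn with
      | nil =>
        intro k0 h0 _ xs _
        choose M hM using fun x : ℕ → α => exists_zone (p := p) hF1 hF6 x
        let k0' : List α → ZMod p := fun X => if X ≠ [] then k0 X else 0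
        have e : chn k0 [] = N k0' := by
          change N k0 = N k0'
          funext X
          induction X with
          | nil => rfl
          | cons a X ih => simp only [N]; rw [ih]; simp [k0']
        have h0' : Loc k0' := by
          refine loc_ite h0 (fun X => X ≠ []) 1 fun X Y h => ?_
          cases X <;> cases Y <;> simp_all
        rw [e]
        have h1 := hJ α (Option α) p w0 List.head? _ _ (hF6 α p).1 sys0
          (xs.map fun x => (Fx x, M x)) (by
            intro Z hZ
            obtain ⟨x, -, rfl⟩ := List.mem_map.mp hZ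
            exact hM x) k0' (lc_w0 h0') (by
            intro X hX
            refine w0_ne fun h => hX ?_
            simp [k0', h])
        have e2 : (xs.map fun x => (Fx x, M x)).map Prod.fst = xs.map Fx := by
          rw [List.map_map]; rfl
        rw [e2] at h1
        exact h1
      | append_singleton ks k ih =>
        intro k0 h0 hs xs hn
        rw [List.length_append, List.length_singleton] at hn
        rw [chn_append]
        have hk : Loc k := hs k (by simp)
        have hs' : ∀ k ∈ ks, Loc k := fun k hk => hs k (by simp [hk])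
        have h1 : ∀ x : ℕ → α, ∃ J : ℕ, ∀ k : List α → ZMod p, Loc k →
            (∀ X, k X ≠ 0 → Near List.head? (fun i => some (x i)) J X) →
            RR (w0 : List α → ZMod p) (xs.map Fx) (TL k (chn k0 ks)) := by
          intro x
          obtain ⟨U, hU, h2⟩ := ih k0 h0 hs' (x :: xs) (by simp; omega)
          obtain ⟨J, -, hJU⟩ := (Fx_basis x).mem_iff.mp hU
          exact ⟨J, fun k hk hks => h2 k (lc_w0 hk) fun X hX => hJU (hks X hX)⟩
        choose J hJx using h1
        obtain ⟨l, c, hlc⟩ := cover J
        obtain ⟨r0, r1, -⟩ := hH1 α p (w0 : List α → ZMod p) (xs.map Fx)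
        have h2 : ∀ l : List (ℕ → α), ∀ k : List α → ZMod p, Loc k →
            (∀ X, k X ≠ 0 → ∃ x ∈ l, Near List.head? (fun i => some (x i)) (J x) X) →
            RR (w0 : List α → ZMod p) (xs.map Fx) (TL k (chn k0 ks)) := by
          intro l
          induction l with
          | nil =>
            intro k _ hks
            have e : k = fun _ => 0 := by
              funext X
              by_contra hX
              obtain ⟨x, hx, -⟩ := hks X hX
              simp at hx
            rw [e, TL_zerol]; exact r0
          | cons x l ihl =>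
            intro k hk hks
            let P : List α → Prop := fun X => Near List.head? (fun i => some (x i)) (J x) X
            have hP : ∀ X Y : List α, X.take (J x) = Y.take (J x) → (P X ↔ P Y) :=
              fun X Y h => ⟨near_take h, near_take h.symm⟩
            have e : k = fun X => (if P X then k X else 0) + if ¬ P X then k X else 0 := by
              funext X
              by_cases h : P X
              · rw [if_pos h, if_neg (not_not.mpr h), add_zero]
              · rw [if_neg h, if_pos h, zero_add]
            rw [e, TL_addl]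
            refine r1 _ _ ?_ ?_
            · refine hJx x _ (loc_ite hk P (J x) hP) fun X hX => ?_
              by_contra h
              exact hX (if_neg h)
            · refine ihl _ (loc_ite hk (fun X => ¬ P X) (J x) fun X Y h => not_congr (hP X Y h))
                fun X hX => ?_
              by_cases h : P X
              · exact absurd (if_neg (not_not.mpr h)) hX
              · have h3 : k X ≠ 0 := fun h4 => hX (by rw [if_pos h]; exact h4)
                obtain ⟨y, hy, h5⟩ := hks X h3
                rcases List.mem_cons.mp hy with rfl | hy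
                · exact absurd h5 h
                · exact ⟨y, hy, h5⟩
        have h3 : ∀ k : List α → ZMod p, Loc k → (∀ X, k X ≠ 0 → X.length < c) →
            RR (w0 : List α → ZMod p) (xs.map Fx) (TL k (chn k0 ks)) := by
          intro k hk hks
          refine rr_of_all _ _ fun ks' hl' hs2 => ?_
          refine cap_of_tr c _ fun U hU => ?_
          have h4 : Ch 0 fun Y => TL k (chn k0 ks) (Y ++ U) := by
            have e : (fun Y => TL k (chn k0 ks) (Y ++ U)) = fun _ => TL k (chn k0 ks) U := by
              funext Y
              rw [TL_tr]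
              have e2 : (fun Y => k (Y ++ U)) = fun _ => 0 := by
                funext Y
                by_contra h
                have := hks _ h
                rw [List.length_append] at this
                omega
              rw [e2, TL_zerol]; simp
            rw [e]
            exact Ch.const _ _
          have h5 := ch_fold ks' 0 _ (fun k hk => loc_of_lc (hs2 k hk)) h4
          refine h5.cap fun k0 ks h0 hs hl => IH _ ?_ k0 ks h0 hs rfl
          rw [List.length_map] at hl'
          omega
        let Q : List α → Prop := fun X => c ≤ X.length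
        have hQ : ∀ X Y : List α, X.take c = Y.take c → (Q X ↔ Q Y) := by
          intro X Y h
          have h2 := congrArg List.length h
          rw [List.length_take, List.length_take] at h2
          simp only [Q]; omega
        have e : k = fun X => (if Q X then k X else 0) + if ¬ Q X then k X else 0 := by
          funext X
          by_cases h : Q X
          · rw [if_pos h, if_neg (not_not.mpr h), add_zero]
          · rw [if_neg h, if_pos h, zero_add]
        rw [e, TL_addl]
        refine r1 _ _ ?_ ?_
        · refine h2 l _ (loc_ite hk Q c hQ) fun X hX => hlc X ?_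
          by_contra h
          exact hX (if_neg h)
        · refine h3 _ (loc_ite hk (fun X => ¬ Q X) c fun X Y h => not_congr (hQ X Y h))
            fun X hX => ?_
          by_contra h
          exact hX (if_neg (not_not.mpr (not_lt.mp h)))
    intro k0 ks h0 hs hn
    have := key ks k0 h0 hs [] (by simp [hn])
    exact this

theorem rowK (hJ : RowJ) (hF1 : RowF1) (hF6 : RowF6) (hH1 : RowH1) : RowK := by
  intro α _ p _ k0 ks h0 hs
  exact main hJ hF1 hF6 hH1 ks.length k0 ks h0 hs rfl

end Vale.Agent.P329.H962.H19
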