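import Vale.Agent.P329.H962.Fin
import Vale.Agent.P329.H19.RowK

/-! Row K, unconditional: all letter chains modulo `p` have star height one. -/

namespace Vale.Agent.P329.H962.H19

open Vale.Agent.P329

theorem k : RowK := rowK Fin.core H657.rowF1 H320.rowF6 rowH1

end Vale.Agent.P329.H962.H19
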