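import Vale.Agent.P329.H962.Rows

/-! Row H3 of the interface `H962.Rows` (independent copy). -/

namespace Vale.Agent.P329.H962.H19

open H259 (pw pw_zero pw_succ pw_one pw_add pw_succ' pw_mul pw_length)
open Filter

variable {α A B : Type} {p : ℕ}

theorem TL_eq_N (k G : List α → ZMod p) : TL k G = N fun X => k X * G X.tail := by
  funext X
  induction X with
  | nil => rfl
  | cons a X ih => simp only [TL, N, List.tail_cons]; rw [ih]

theorem rowH3 (hA : RowA) (hC : RowC) (hE : RowE) (hH1 : RowH1) : RowH3 := by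
  intro α B _ _ p _ w β wB lB hw hS Zs
  induction Zs with
  | nil => intro _ _ G hG; exact hA α p w hw G hG
  | cons Z Zs ih =>
    intro hZ hshort G hG
    have hZn := hZ Z (by simp)
    obtain ⟨z, hz1, hz2⟩ := hZn.z
    obtain ⟨m, hm⟩ := hZn.mn.ne
    obtain ⟨J0, hJ0⟩ := hZn.cov []
    obtain ⟨k, hk⟩ := hz2 m hm J0
    have hcut : ∀ X, Near β z (k + J0) X → ∃ i ≤ k + J0, w (X.drop i) ≠ 0 := by
      intro X hX
      have h1 : Near β m J0 (X.drop k) := by
        refine ⟨by rw [List.length_drop]; have := hX.1; omega, fun i hi => ?_⟩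
        rw [List.drop_drop, hX.2 (k + i) (by omega)]
        exact hk i hi
      obtain ⟨i, hi, h2⟩ := hJ0 m hm _ h1
      rw [List.drop_drop] at h2
      exact ⟨k + i, by omega, h2⟩
    refine ⟨{X | Near β z (k + J0) X}, hz1 (k + J0), fun κ hκ hs => ?_⟩
    rw [TL_eq_N]
    have hf : Lc w fun X => κ X * G X.tail :=
      (hC α p w).1 _ _ (fun q : ZMod p × ZMod p => q.1 * q.2) _
        ((hC α p w).2.1 _ _ _ _ hκ ((hC α p w).2.2.2.1 hw _ G hG))
    obtain ⟨hE1, hE2⟩ := hE α p w fun X => κ X * G X.tail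
    obtain ⟨hE3, hE4⟩ := hE2 hw hf ⟨k + J0, fun X hX => hcut X (hs X (left_ne_zero_of_mul hX))⟩
    have e : (N fun X => κ X * G X.tail) = fun X =>
        N (rgg w fun X => κ X * G X.tail) X + rgG w (fun X => κ X * G X.tail) X :=
      funext hE1
    rw [e]
    have hZ' : ∀ Z' ∈ Zs, Zn w β Z'.1 Z'.2 := fun Z' hZ' => hZ Z' (by simp [hZ'])
    refine (hH1 α p w (Zs.map Prod.fst)).2.1 _ _ ?_ ?_
    · refine hshort Zs (by simp) hZ' _ hE4 fun X hX => ?_
      cases X with
      | nil => exact absurd rfl hX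
      | cons a X =>
        intro h1
        exact hX (by simp only [rgg]; rw [if_pos h1])
    · refine ih hZ' (fun Zs' hl => hshort Zs' ?_) _ hE3
      rw [List.length_cons]; omega

end Vale.Agent.P329.H962.H19
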