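import Vale.Agent.P329.H962.Rows

/-! Row I of the interface `H962.Rows` (independent copy). -/

namespace Vale.Agent.P329.H962.H19

open H259 (pw pw_zero pw_succ pw_one pw_add pw_succ' pw_mul pw_length)
open Filter

variable {α A B : Type} {p : ℕ}

theorem N_tele (Ψ : List α → ZMod p) (X : List α) :
    N (fun X => Ψ X - Ψ X.tail) X = Ψ X - Ψ [] := by
  induction X with
  | nil => simp [N]
  | cons a X ih => simp only [N, List.tail_cons]; rw [ih]; ring

theorem N_sub (f g : List α → ZMod p) (X : List α) :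
    N (fun X => f X - g X) X = N f X - N g X := by
  induction X with
  | nil => simp [N]
  | cons a X ih => simp only [N]; rw [ih]; ring

theorem rgG_zero {w f : List α → ZMod p} : ∀ (k : ℕ) (X : List α),
    (∀ i < k, f (X.drop i) = 0) → w (X.drop k) ≠ 0 → rgG w f X = 0
  | 0, [], _, _ => rfl
  | 0, a :: X, _, h => by
    simp only [rgG]
    rw [if_neg (show w (a :: X) ≠ 0 from h)]
  | k + 1, [], _, _ => rfl
  | k + 1, a :: X, hf, h => by
    simp only [rgG]
    split_ifs with h1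
    · rw [rgG_zero k X (fun i hi => hf (i + 1) (by omega)) h, zero_add]
      exact hf 0 (by omega)
    · rfl

theorem rgg_zero {w f : List α → ZMod p} (k : ℕ) (X : List α)
    (hf : ∀ i ≤ k, f (X.drop i) = 0) (h : w (X.drop (k + 1)) ≠ 0) : rgg w f X = 0 := by
  cases X with
  | nil => rfl
  | cons a X =>
    simp only [rgg]
    split_ifs with h1
    · rfl
    · rw [rgG_zero k X (fun i hi => hf (i + 1) (by omega)) h, zero_add]
      exact hf 0 (by omega)

theorem rgg_supp {w f : List α → ZMod p} (X : List α) (h : rgg w f X ≠ 0) : w X ≠ 0 := by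
  cases X with
  | nil => exact absurd rfl h
  | cons a X =>
    intro h1
    exact h (by simp only [rgg]; rw [if_pos h1])

theorem shift_mem {M : Set (ℕ → B)} (hi : ∀ m ∈ M, sh m ∈ M) :
    ∀ (k : ℕ) {m : ℕ → B}, m ∈ M → (fun i => m (k + i)) ∈ M
  | 0, m, hm => by simpa using hm
  | k + 1, m, hm => by
    have := shift_mem hi k (hi m hm)
    have e : (fun i => m (k + 1 + i)) = fun i => sh m (k + i) := by
      funext i
      simp only [sh]
      congr 1
      omega
    rw [e]; exact this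

theorem near_mono {β : List α → B} {z : ℕ → B} {J J' : ℕ} {X : List α} (h : Near β z J X)
    (hJ : J' ≤ J) : Near β z J' X := ⟨hJ.trans h.1, fun i hi => h.2 i (by omega)⟩

theorem near_drop {β : List α → B} {z : ℕ → B} {J : ℕ} {X : List α} (k : ℕ)
    (h : Near β z (J + k) X) : Near β (fun i => z (k + i)) J (X.drop k) := by
  refine ⟨by rw [List.length_drop]; have := h.1; omega, fun i hi => ?_⟩
  rw [List.drop_drop]
  exact h.2 (k + i) (by omega)

theorem Fl_rgg {β : List α → B} {w f : List α → ZMod p} {M : Set (ℕ → B)}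
    (hi : ∀ m ∈ M, sh m ∈ M) (hc : Cov w β M) (hf : Fl f β M) : Fl (rgg w f) β M := by
  obtain ⟨J1, h1⟩ := hf
  obtain ⟨J0, h0⟩ := hc []
  refine ⟨J1 + J0 + 1, fun m hm X hX => ?_⟩
  have h2 : Near β (fun i => m (1 + i)) J0 (X.drop 1) :=
    near_drop 1 (near_mono hX (by omega))
  obtain ⟨i, hi0, hi1⟩ := h0 _ (shift_mem hi 1 hm) _ h2
  rw [List.drop_drop] at hi1
  refine rgg_zero i X (fun j hj => ?_) ?_
  · exact h1 _ (shift_mem hi j hm) _ (near_drop j (near_mono hX (by omega)))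
  · rw [add_comm]; exact hi1

theorem exists_bound {ι : Type*} (P : ι → ℕ → Prop) (hm : ∀ i n n', n ≤ n' → P i n → P i n') :
    ∀ l : List ι, (∀ i ∈ l, ∃ n, P i n) → ∃ n, ∀ i ∈ l, P i n
  | [], _ => ⟨0, by simp⟩
  | i :: l, h => by
    obtain ⟨n1, h1⟩ := h i (by simp)
    obtain ⟨n2, h2⟩ := exists_bound P hm l fun j hj => h j (by simp [hj])
    refine ⟨max n1 n2, fun j hj => ?_⟩
    rcases List.mem_cons.mp hj with rfl | hj
    · exact hm _ _ _ (le_max_left _ _) h1
    · exact hm _ _ _ (le_max_right _ _) (h2 j hj)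

open Classical in
theorem rowI (hC : RowC) (hE : RowE) (hF3 : RowF3) : RowI := by
  intro α B _ _ p _ w β wB lB hw hS Zs hZs g hg hgs Z hZ τ hτ hcob
  obtain ⟨Jt, hJt, hrep⟩ := hτ
  obtain ⟨ψ, ⟨J, hψ⟩, hψ2⟩ := hcob
  set M := Z.2 with hM
  have hZn := hZs Z hZ
  obtain ⟨J0, hJ0⟩ := hZn.cov []
  have hinv := hZn.mn.inv
  obtain ⟨L1, hL1⟩ : ∃ L, ∀ Z' ∈ Zs, Z'.2 ≠ M → ∀ m ∈ M, ∀ m' ∈ Z'.2, ∃ i < L, m i ≠ m' i := by
    refine exists_bound (fun (Z' : Filter (List α) × Set (ℕ → B)) L => Z'.2 ≠ M →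
      ∀ m ∈ M, ∀ m' ∈ Z'.2, ∃ i < L, m i ≠ m' i) ?_ Zs ?_
    · intro Z' n n' hn h h1 m hm m' hm'
      obtain ⟨i, hi, h2⟩ := h h1 m hm m' hm'
      exact ⟨i, by omega, h2⟩
    · intro Z' hZ'
      by_cases h : Z'.2 = M
      · exact ⟨0, fun h' => absurd h h'⟩
      · obtain ⟨L, hL⟩ := hF3 B M Z'.2 hZn.mn (hZs Z' hZ').mn (fun h' => h h'.symm)
        exact ⟨L, fun _ => hL⟩
  set L := J + J0 + L1 + 1 with hL
  let F : (ℕ → B) → ZMod p := fun z => if ∃ m ∈ M, ∀ i < L, m i = z i then ψ z else 0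
  have hF : Wn L F := by
    intro z z' hz
    have e1 : (∃ m ∈ M, ∀ i < L, m i = z i) ↔ ∃ m ∈ M, ∀ i < L, m i = z' i := by
      constructor
      · rintro ⟨m, hm, h⟩; exact ⟨m, hm, fun i hi => (h i hi).trans (hz i hi)⟩
      · rintro ⟨m, hm, h⟩; exact ⟨m, hm, fun i hi => (h i hi).trans (hz i hi).symm⟩
    have e2 : ψ z = ψ z' := hψ z z' fun i hi => hz i (by omega)
    simp only [F]
    rw [e2]
    by_cases h : ∃ m ∈ M, ∀ i < L, m i = z i
    · rw [if_pos h, if_pos (e1.mp h)]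
    · rw [if_neg h, if_neg fun h' => h (e1.mpr h')]
  let Ψ : List α → ZMod p := fun X => if L ≤ X.length then F (fun i => β (X.drop i)) else 0
  have hΨl : Lc w Ψ := (hC α p w).2.2.2.2.2.2.2.2.2 hw B _ β hS.lc L F 0 hF
  have hΨn : ∀ X, Ψ X ≠ 0 → ∃ m ∈ M, Near β m L X := by
    intro X hX
    by_cases h1 : L ≤ X.length
    · by_cases h2 : ∃ m ∈ M, ∀ i < L, m i = β (X.drop i)
      · obtain ⟨m, hm, h3⟩ := h2
        exact ⟨m, hm, h1, fun i hi => (h3 i hi).symm⟩
      · exact absurd (by simp only [Ψ]; rw [if_pos h1]; simp only [F]; rw [if_neg h2]) hX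
    · exact absurd (by simp only [Ψ]; rw [if_neg h1]) hX
  have hΨm : ∀ m ∈ M, ∀ X, Near β m L X → Ψ X = ψ m := by
    intro m hm X hX
    have h2 : ∃ m ∈ M, ∀ i < L, m i = β (X.drop i) := ⟨m, hm, fun i hi => (hX.2 i hi).symm⟩
    simp only [Ψ]; rw [if_pos hX.1]; simp only [F]; rw [if_pos h2]
    exact hψ _ _ fun i hi => hX.2 i (by omega)
  have hΨ0 : Ψ [] = 0 := by
    simp only [Ψ]; rw [if_neg]; simp [hL]
  let f : List α → ZMod p := fun X => g X - (Ψ X - Ψ X.tail)
  have hΨt : Lc w fun X => Ψ X.tail := (hC α p w).2.2.2.1 hw _ Ψ hΨl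
  have hf : Lc w f := by
    have h1 := (hC α p w).2.1 _ _ _ _ hg ((hC α p w).2.1 _ _ _ _ hΨl hΨt)
    exact (hC α p w).1 _ _ (fun q => q.1 - (q.2.1 - q.2.2)) _ h1
  have hcut : ∀ X, Ψ X ≠ 0 → ∃ i < J0, w (X.drop i) ≠ 0 := by
    intro X hX
    obtain ⟨m, hm, h1⟩ := hΨn X hX
    exact hJ0 m hm X (near_mono h1 (by omega))
  have hfJ : ∃ J, ∀ X, f X ≠ 0 → ∃ i ≤ J, w (X.drop i) ≠ 0 := by
    refine ⟨J0 + 1, fun X hX => ?_⟩
    by_cases h1 : g X = 0
    · by_cases h2 : Ψ X = 0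
      · have h3 : Ψ X.tail ≠ 0 := by
          intro h3
          exact hX (by simp only [f]; rw [h1, h2, h3]; simp)
        obtain ⟨i, hi, h4⟩ := hcut _ h3
        refine ⟨i + 1, by omega, ?_⟩
        rw [← List.drop_one, List.drop_drop, add_comm] at h4
        exact h4
      · obtain ⟨i, hi, h4⟩ := hcut _ h2
        exact ⟨i, by omega, h4⟩
    · exact ⟨0, by omega, by simpa using hgs X h1⟩
  obtain ⟨hE1, hE2⟩ := hE α p w f
  obtain ⟨hE3, hE4⟩ := hE2 hw hf hfJ
  have hcovf : ∀ Z' ∈ Zs, Fl f β Z'.2 → Fl (rgg w f) β Z'.2 := fun Z' hZ' h =>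
    Fl_rgg (hZs Z' hZ').mn.inv (hZs Z' hZ').cov h
  have hflat : Fl f β M := by
    refine ⟨Jt + L + 1, fun m hm X hX => ?_⟩
    have h1 : g X = τ m := hrep m hm X (near_mono hX (by omega))
    have h2 : Ψ X = ψ m := hΨm m hm X (near_mono hX (by omega))
    have h3 : Ψ X.tail = ψ (sh m) := by
      refine hΨm _ (hinv m hm) _ ?_
      have := near_drop (J := L) 1 (near_mono hX (by omega))
      rw [List.drop_one] at this
      have e : sh m = fun i => m (1 + i) := by
        funext i; simp only [sh]; rw [add_comm]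
      rw [e]; exact this
    simp only [f]
    rw [h1, h2, h3, hψ2 m hm]
    ring
  refine ⟨rgg w f, fun X => rgG w f X + Ψ X, hE4, rgg_supp, ?_, ?_, hcovf Z hZ hflat, ?_⟩
  · exact (hC α p w).1 _ _ (fun q : ZMod p × ZMod p => q.1 + q.2) _
      ((hC α p w).2.1 _ _ _ _ hE3 hΨl)
  · intro X
    have h1 : N f X = N g X - (Ψ X - Ψ []) := by
      simp only [f]
      rw [N_sub g (fun X => Ψ X - Ψ X.tail) X, N_tele]
    have h2 := hE1 X
    rw [h1, hΨ0] at h2
    linear_combination h2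
  · intro Z' hZ' hfl
    by_cases h : Z'.2 = M
    · rw [h]; exact hcovf Z hZ hflat
    · refine hcovf Z' hZ' ?_
      obtain ⟨J2, hJ2⟩ := hfl
      have hz : ∀ m ∈ Z'.2, ∀ X, Near β m L X → Ψ X = 0 := by
        intro m' hm' X hX
        by_contra h1
        obtain ⟨m, hm, h2⟩ := hΨn X h1
        obtain ⟨i, hi, h3⟩ := hL1 Z' hZ' h m hm m' hm'
        exact h3 ((h2.2 i (by omega)).symm.trans (hX.2 i (by omega)))
      refine ⟨J2 + L + 1, fun m hm X hX => ?_⟩
      have h1 : g X = 0 := hJ2 m hm X (near_mono hX (by omega))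
      have h2 : Ψ X = 0 := hz m hm X (near_mono hX (by omega))
      have h3 : Ψ X.tail = 0 := by
        have := near_drop (J := L) 1 (near_mono hX (by omega))
        rw [List.drop_one] at this
        exact hz _ (shift_mem (hZs Z' hZ').mn.inv 1 hm) _ this
      simp only [f]
      rw [h1, h2, h3]; simp

end Vale.Agent.P329.H962.H19
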